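import Vale.Agent.P143.Transport

open SimpleGraph

namespace Vale.Agent.P143

variable {Γ : Type*} [Group Γ]

lemma coset_eq_of_adj {S₁ : Set Γ} {x y : Γ} (h : (mulCayley S₁).Adj x y) :
    (x : Γ ⧸ Subgroup.closure S₁) = y := by
  rw [mulCayley_adj] at h
  rw [QuotientGroup.eq]
  rcases h.2 with h | h
  · exact Subgroup.subset_closure h
  · have := (Subgroup.closure S₁).inv_mem (Subgroup.subset_closure h)
    simpa using this

open Classical in
/-- The class of a pair: `some c` for an edge of the Cayley graph of `S₁` inside the left coset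
`c` of the subgroup generated by `S₁`, and `none` for all other pairs. -/
noncomputable def cls (S₁ : Set Γ) : Sym2 Γ → Option (Γ ⧸ Subgroup.closure S₁) :=
  Sym2.lift ⟨fun x y => if (mulCayley S₁).Adj x y then some (x : Γ ⧸ Subgroup.closure S₁) else none,
    fun x y => by
      by_cases h : (mulCayley S₁).Adj x y
      · simp only [h, h.symm, if_true, coset_eq_of_adj h]
      · have h' : ¬ (mulCayley S₁).Adj y x := fun h' => h h'.symm
        simp only [h, h', if_false]⟩

lemma cls_mk_of_adj {S₁ : Set Γ} {x y : Γ} (h : (mulCayley S₁).Adj x y) :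
    cls S₁ s(x, y) = some (x : Γ ⧸ Subgroup.closure S₁) := by
  simp [cls, h]

lemma cls_mk_of_not_adj {S₁ : Set Γ} {x y : Γ} (h : ¬ (mulCayley S₁).Adj x y) :
    cls S₁ s(x, y) = none := by
  simp [cls, h]

lemma cls_eq_none_iff {S₁ : Set Γ} {e : Sym2 Γ} :
    cls S₁ e = none ↔ e ∉ (mulCayley S₁).edgeSet := by
  induction e with
  | h x y =>
    by_cases h : (mulCayley S₁).Adj x y
    · simp [cls_mk_of_adj h, h]
    · simp [cls_mk_of_not_adj h, h]

lemma cls_mk_eq_some_iff {S₁ : Set Γ} {x y : Γ} {c : Γ ⧸ Subgroup.closure S₁} :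
    cls S₁ s(x, y) = some c ↔ (mulCayley S₁).Adj x y ∧ (x : Γ ⧸ Subgroup.closure S₁) = c := by
  by_cases h : (mulCayley S₁).Adj x y
  · simp [cls_mk_of_adj h, h]
  · simp [cls_mk_of_not_adj h, h]

/-- adjacency in the Cayley graph of the subgroup generated by `S₁` -/
lemma small_adj_iff {S₁ : Set Γ} (r : Γ) (h k : Subgroup.closure S₁) :
    (mulCayley (Subtype.val ⁻¹' S₁ : Set (Subgroup.closure S₁))).Adj h k ↔
      (mulCayley S₁).Adj (r * h) (r * k) := by
  rw [mulCayley_adj_mul_iff_right, mulCayley_adj, mulCayley_adj]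
  have e1 : h ≠ k ↔ (h : Γ) ≠ k := by rw [Ne, Ne, Subtype.ext_iff]
  rw [e1]
  rfl

/-- The embedding of the Cayley graph of the subgroup generated by `S₁` onto the coset of `r`. -/
def emb (S₁ S₂ : Set Γ) (r : Γ) :
    mulCayley (Subtype.val ⁻¹' S₁ : Set (Subgroup.closure S₁)) →g mulCayley (S₁ ∪ S₂) where
  toFun h := r * h
  map_rel' {h k} hhk :=
    mulCayley_mono (Set.subset_union_left) ((small_adj_iff r h k).mp hhk)

lemma emb_apply (S₁ S₂ : Set Γ) (r : Γ) (h : Subgroup.closure S₁) : emb S₁ S₂ r h = r * h := rfl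

lemma emb_injective (S₁ S₂ : Set Γ) (r : Γ) : Function.Injective (emb S₁ S₂ r) := by
  intro h k hhk
  simp only [emb_apply, mul_right_inj] at hhk
  exact Subtype.ext hhk

lemma mem_range_of_coset_eq {S₁ S₂ : Set Γ} {r x : Γ}
    (h : (x : Γ ⧸ Subgroup.closure S₁) = r) : ∃ k : Subgroup.closure S₁, emb S₁ S₂ r k = x := by
  rw [eq_comm, QuotientGroup.eq] at h
  exact ⟨⟨r⁻¹ * x, h⟩, by simp [emb_apply]⟩

/-- the pairs of class `some r` are the images of the edges of the small Cayley graph -/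
lemma cls_some_subset_range (S₁ S₂ : Set Γ) (r : Γ) :
    cls S₁ ⁻¹' {some (r : Γ ⧸ Subgroup.closure S₁)} ⊆ Set.range (Sym2.map (emb S₁ S₂ r)) := by
  intro e he
  induction e with
  | h x y =>
    rw [Set.mem_preimage, Set.mem_singleton_iff, cls_mk_eq_some_iff] at he
    obtain ⟨k, hk⟩ := mem_range_of_coset_eq (S₂ := S₂) he.2
    obtain ⟨l, hl⟩ := mem_range_of_coset_eq (S₂ := S₂) ((coset_eq_of_adj he.1).symm.trans he.2)
    exact ⟨s(k, l), by rw [Sym2.map_mk, hk, hl]⟩

lemma piece_eq (S₁ S₂ : Set Γ) (r : Γ) (H : (mulCayley (S₁ ∪ S₂)).Subgraph) :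
    H.edgeSet ∩ cls S₁ ⁻¹' {some (r : Γ ⧸ Subgroup.closure S₁)} =
      Sym2.map (emb S₁ S₂ r) '' (H.comap (emb S₁ S₂ r)).edgeSet := by
  ext e
  constructor
  · rintro ⟨heH, hec⟩
    obtain ⟨e₁, rfl⟩ := cls_some_subset_range S₁ S₂ r hec
    refine ⟨e₁, ?_, rfl⟩
    induction e₁ with
    | h k l =>
      rw [Sym2.map_mk] at heH hec
      rw [Set.mem_preimage, Set.mem_singleton_iff, cls_mk_eq_some_iff] at hec
      rw [Subgraph.mem_edgeSet, Subgraph.comap_adj]
      exact ⟨(small_adj_iff r k l).mpr hec.1, heH⟩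
  · rintro ⟨e₁, he₁, rfl⟩
    induction e₁ with
    | h k l =>
      rw [Subgraph.mem_edgeSet, Subgraph.comap_adj] at he₁
      rw [Sym2.map_mk]
      refine ⟨he₁.2, ?_⟩
      rw [Set.mem_preimage, Set.mem_singleton_iff, cls_mk_eq_some_iff]
      refine ⟨(small_adj_iff r k l).mp he₁.1, ?_⟩
      rw [emb_apply, QuotientGroup.eq]
      simp

end Vale.Agent.P143
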