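import Vale.Agent.P143.Trees

open SimpleGraph

namespace Vale.Agent.P143

variable {V : Type*} {α : Type*} {ι : Type*}

lemma ncard_split (P : Set α) (X Y : Set (Set α)) (hX : ∀ F ∈ X, F ⊆ P)
    (hY : ∀ F ∈ Y, Disjoint F P) :
    {F : Set α | F ∩ P ∈ X ∧ F \ P ∈ Y}.ncard = X.ncard * Y.ncard := by
  rw [← Set.ncard_prod]
  have himg : {F : Set α | F ∩ P ∈ X ∧ F \ P ∈ Y} =
      (fun p : Set α × Set α => p.1 ∪ p.2) '' (X ×ˢ Y) := by
    ext F
    constructor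
    · rintro ⟨h1, h2⟩
      exact ⟨(F ∩ P, F \ P), ⟨h1, h2⟩, Set.inter_union_sdiff F P⟩
    · rintro ⟨⟨F1, F2⟩, ⟨h1, h2⟩, rfl⟩
      have d := hY F2 h2
      have s := hX F1 h1
      have e1 : (F1 ∪ F2) ∩ P = F1 := by
        rw [Set.union_inter_distrib_right, d.inter_eq, Set.union_empty,
          Set.inter_eq_left.mpr s]
      have e2 : (F1 ∪ F2) \ P = F2 := by
        rw [Set.union_sdiff_distrib, Set.sdiff_eq_empty.mpr s, Set.empty_union, d.sdiff_eq_left]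
      simp only [Set.mem_ofPred_eq, e1, e2]
      exact ⟨h1, h2⟩
  rw [himg]
  apply Set.InjOn.ncard_image
  rintro ⟨F1, F2⟩ ⟨h1, h2⟩ ⟨F1', F2'⟩ ⟨h1', h2'⟩ heq
  simp only at heq h1 h2 h1' h2'
  have key : ∀ (A B : Set α), A ∈ X → B ∈ Y → (A ∪ B) ∩ P = A ∧ (A ∪ B) \ P = B := by
    intro A B hA hB
    have d := hY B hB
    have s := hX A hA
    constructor
    · rw [Set.union_inter_distrib_right, d.inter_eq, Set.union_empty, Set.inter_eq_left.mpr s]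
    · rw [Set.union_sdiff_distrib, Set.sdiff_eq_empty.mpr s, Set.empty_union, d.sdiff_eq_left]
  have a := key F1 F2 h1 h2
  have b := key F1' F2' h1' h2'
  rw [heq] at a
  exact Prod.ext (a.1.symm.trans b.1) (a.2.symm.trans b.2)

/-- every cycle with edges in `E` has all its edges in one class of `κ` -/
def MonoCyc (E : Set (Sym2 V)) (κ : Sym2 V → ι) : Prop :=
  ∀ (v : V) (c : (fromEdgeSet E).Walk v v), c.IsCycle → ∃ i, ∀ e ∈ c.edges, κ e = i

lemma MonoCyc.mono {E E' : Set (Sym2 V)} {κ : Sym2 V → ι} (h : MonoCyc E κ) (hE : E' ⊆ E) :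
    MonoCyc E' κ := by
  intro v c hc
  have := h v (c.mapLe (fromEdgeSet_mono hE)) (hc.mapLe _)
  simpa using this

lemma MonoCyc.sep {E : Set (Sym2 V)} {κ : Sym2 V → ι} (h : MonoCyc E κ) (i : ι) :
    Sep E (κ ⁻¹' {i}) := by
  intro v c hc
  obtain ⟨j, hj⟩ := h v c hc
  by_cases hij : j = i
  · left; intro e he; simp [hj e he, hij]
  · right; intro e he; simp [hj e he, hij]

lemma ncard_maxAcyc_classes [DecidableEq ι] (κ : Sym2 V → ι) (𝒜 : ι → Set (Set (Sym2 V)))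
    (C : Finset ι) : ∀ (E : Set (Sym2 V)), MonoCyc E κ →
    {F | MaxAcyc E F ∧ ∀ i ∈ C, F ∩ κ ⁻¹' {i} ∈ 𝒜 i}.ncard =
      (∏ i ∈ C, {F | MaxAcyc (E ∩ κ ⁻¹' {i}) F ∧ F ∈ 𝒜 i}.ncard) *
        {F | MaxAcyc (E \ κ ⁻¹' (C : Set ι)) F}.ncard := by
  induction C using Finset.induction_on with
  | empty =>
    intro E _
    simp
  | insert i0 C hi0 ih =>
    intro E hE
    set P : Set (Sym2 V) := κ ⁻¹' {i0} with hP
    have hsep := hE.sep i0
    have hset : {F | MaxAcyc E F ∧ ∀ i ∈ insert i0 C, F ∩ κ ⁻¹' {i} ∈ 𝒜 i} =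
        {F | F ∩ P ∈ {F1 | MaxAcyc (E ∩ P) F1 ∧ F1 ∈ 𝒜 i0} ∧
          F \ P ∈ {F2 | MaxAcyc (E \ P) F2 ∧ ∀ i ∈ C, F2 ∩ κ ⁻¹' {i} ∈ 𝒜 i}} := by
      ext F
      have hdiff : ∀ i ∈ C, (F \ P) ∩ κ ⁻¹' {i} = F ∩ κ ⁻¹' {i} := by
        intro i hi
        have hne : i ≠ i0 := fun h => hi0 (h ▸ hi)
        ext e
        simp only [hP, Set.mem_inter_iff, Set.mem_sdiff, Set.mem_preimage, Set.mem_singleton_iff]
        constructor
        · rintro ⟨⟨h1, _⟩, h3⟩; exact ⟨h1, h3⟩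
        · rintro ⟨h1, h3⟩; exact ⟨⟨h1, fun h => hne (h3.symm.trans h)⟩, h3⟩
      simp only [Set.mem_ofPred_eq, Finset.forall_mem_insert, maxAcyc_iff_of_sep hsep (F := F)]
      constructor
      · rintro ⟨⟨h1, h2⟩, h3, h4⟩
        exact ⟨⟨h1, h3⟩, h2, fun i hi => by rw [hdiff i hi]; exact h4 i hi⟩
      · rintro ⟨⟨h1, h3⟩, h2, h4⟩
        exact ⟨⟨h1, h2⟩, h3, fun i hi => by rw [← hdiff i hi]; exact h4 i hi⟩
    rw [hset, ncard_split P _ _ (fun F hF => hF.1.1.1.trans Set.inter_subset_right)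
      (fun F hF => Set.disjoint_left.mpr fun e he => (hF.1.1.1 he).2),
      ih (E \ P) (hE.mono Set.sdiff_subset), Finset.prod_insert hi0, mul_assoc]
    congr 1
    congr 1
    · apply Finset.prod_congr rfl
      intro i hi
      have hne : i ≠ i0 := fun h => hi0 (h ▸ hi)
      have : (E \ P) ∩ κ ⁻¹' {i} = E ∩ κ ⁻¹' {i} := by
        ext e
        simp only [hP, Set.mem_inter_iff, Set.mem_sdiff, Set.mem_preimage, Set.mem_singleton_iff]
        constructor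
        · rintro ⟨⟨h1, _⟩, h3⟩; exact ⟨h1, h3⟩
        · rintro ⟨h1, h3⟩; exact ⟨⟨h1, fun h => hne (h3.symm.trans h)⟩, h3⟩
      rw [this]
    · have : (E \ P) \ κ ⁻¹' (C : Set ι) = E \ κ ⁻¹' ((insert i0 C : Finset ι) : Set ι) := by
        ext e
        simp only [hP, Set.mem_sdiff, Set.mem_preimage, Set.mem_singleton_iff, Finset.coe_insert,
          Set.mem_insert_iff, Finset.mem_coe, not_or]
        tauto
      rw [this]

lemma finite_maxAcyc {E : Set (Sym2 V)} (hE : E.Finite) : {F | MaxAcyc E F}.Finite :=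
  hE.finite_subsets.subset fun _ hF => hF.1.1

lemma exists_maxAcyc {E : Set (Sym2 V)} (hE : E.Finite) : ∃ F, MaxAcyc E F := by
  have hfin : {F' : Set (Sym2 V) | F' ⊆ E ∧ Acyc F'}.Finite :=
    hE.finite_subsets.subset fun _ hF => hF.1
  have hne : {F' : Set (Sym2 V) | F' ⊆ E ∧ Acyc F'}.Nonempty :=
    ⟨∅, Set.empty_subset _, by unfold Acyc; simp⟩
  obtain ⟨F, hF⟩ := hfin.exists_maximal hne
  exact ⟨F, hF⟩

lemma ncard_maxAcyc_pos {E : Set (Sym2 V)} (hE : E.Finite) : 0 < {F | MaxAcyc E F}.ncard :=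
  (Set.ncard_pos (finite_maxAcyc hE)).mpr (exists_maxAcyc hE)

/-- probability of the event `𝒜` for a uniformly chosen maximal acyclic subset of `E` -/
noncomputable def clsProb (E : Set (Sym2 V)) (𝒜 : Set (Set (Sym2 V))) : ℝ :=
  ({F | MaxAcyc E F ∧ F ∈ 𝒜}.ncard : ℝ) / ({F | MaxAcyc E F}.ncard : ℝ)

lemma clsProb_classes [DecidableEq ι] (κ : Sym2 V → ι) (𝒜 : ι → Set (Set (Sym2 V)))
    (C : Finset ι) (E : Set (Sym2 V)) (hE : E.Finite) (hmono : MonoCyc E κ) :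
    clsProb E {F | ∀ i ∈ C, F ∩ κ ⁻¹' {i} ∈ 𝒜 i} =
      ∏ i ∈ C, clsProb (E ∩ κ ⁻¹' {i}) (𝒜 i) := by
  unfold clsProb
  have h1 := ncard_maxAcyc_classes κ 𝒜 C E hmono
  have h2 := ncard_maxAcyc_classes κ (fun _ => Set.univ) C E hmono
  simp only [Set.mem_univ, implies_true, and_true] at h2
  have hr : (({F | MaxAcyc (E \ κ ⁻¹' (C : Set ι)) F}.ncard : ℕ) : ℝ) ≠ 0 := by
    have := ncard_maxAcyc_pos (hE.subset (Set.sdiff_subset (t := κ ⁻¹' (C : Set ι))))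
    positivity
  simp only [Set.mem_ofPred_eq]
  rw [h1, h2]
  push_cast
  rw [mul_div_mul_right _ _ hr, Finset.prod_div_distrib]

lemma ustProb_eq_clsProb {G : SimpleGraph V} (H : G.Subgraph) (hH : H.Connected)
    (𝒜 : Set (Set (Sym2 V))) : ustProb H 𝒜 = clsProb H.edgeSet 𝒜 := by
  unfold ustProb clsProb
  simp only [isSpanningTree_iff_maxAcyc H hH]

lemma inter_eq_iff_classes (κ : Sym2 V → ι) (C : Finset ι) (B A F : Set (Sym2 V))
    (hAB : A ⊆ B) (hC : ∀ e ∈ B, κ e ∈ C) :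
    F ∩ B = A ↔ ∀ i ∈ C, (F ∩ κ ⁻¹' {i}) ∩ B = A ∩ κ ⁻¹' {i} := by
  constructor
  · rintro rfl i _
    ext e
    simp only [Set.mem_inter_iff]
    tauto
  · intro h
    ext e
    constructor
    · rintro ⟨heF, heB⟩
      have := (h (κ e) (hC e heB)).subset ⟨⟨heF, rfl⟩, heB⟩
      exact this.1
    · intro heA
      have := (h (κ e) (hC e (hAB heA))).superset ⟨heA, rfl⟩
      exact ⟨this.1.1, this.2⟩

end Vale.Agent.P143
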