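import Mathlib

open MeasureTheory Filter Topology

namespace Vale.Agent.P143

variable {V : Type*}

/-- `F` is the edge set of a spanning tree of the subgraph `H` of `G`: it consists of edges of `H`,
contains no cycle, and joins any two vertices of `H`. -/
def IsSpanningTree {G : SimpleGraph V} (H : G.Subgraph) (F : Set (Sym2 V)) : Prop :=
  F ⊆ H.edgeSet ∧ (SimpleGraph.fromEdgeSet F).IsAcyclic ∧
    ∀ u ∈ H.verts, ∀ v ∈ H.verts, (SimpleGraph.fromEdgeSet F).Reachable u v

/-- The probability that the uniform spanning tree of the finite subgraph `H`, viewed as an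
edge set, lies in the event `E`. -/
noncomputable def ustProb {G : SimpleGraph V} (H : G.Subgraph) (E : Set (Set (Sym2 V))) : ℝ :=
  ({F | IsSpanningTree H F ∧ F ∈ E}.ncard : ℝ) / ({F | IsSpanningTree H F}.ncard : ℝ)

/-- An exhaustion of `G` by finite connected subgraphs. -/
structure IsExhaustion (G : SimpleGraph V) (H : ℕ → G.Subgraph) : Prop where
  finite : ∀ n, (H n).verts.Finite
  connected : ∀ n, (H n).Connected
  mono : Monotone H
  iSup_eq : ⨆ n, H n = ⊤

/-- `μ` is the free uniform spanning forest of `G`: the weak limit (convergence of all cylinder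
probabilities) of the uniform spanning trees along every exhaustion. -/
def IsFUSF (G : SimpleGraph V) (μ : Measure (Set (Sym2 V))) : Prop :=
  IsProbabilityMeasure μ ∧ ∀ H : ℕ → G.Subgraph, IsExhaustion G H →
    ∀ (B : Finset (Sym2 V)) (A : Set (Sym2 V)),
      Tendsto (fun n => ustProb (H n) {F | F ∩ ↑B = A}) atTop (𝓝 (μ {F | F ∩ ↑B = A}).toReal)

/-- The law of i.i.d. uniform `[0,1]` labels on the elements of `Γ`. -/
noncomputable def iidLabels (Γ : Type*) : Measure (Γ → unitInterval) :=
  Measure.infinitePi (fun _ : Γ => (volume : Measure unitInterval))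

/-- `μ` (a law of random sets of pairs of elements of `Γ`) is a `Γ`-factor of IID. -/
def IsFactorOfIID (Γ : Type*) [Group Γ] (μ : Measure (Set (Sym2 Γ))) : Prop :=
  ∃ Φ : (Γ → unitInterval) → Set (Sym2 Γ), Measurable Φ ∧
    (∀ (γ : Γ) (U : Γ → unitInterval),
      Φ (fun v => U (γ⁻¹ * v)) = Sym2.map (fun v => γ * v) '' Φ U) ∧
    (iidLabels Γ).map Φ = μ

/-- The free uniform spanning forest of the Cayley graph of `Γ` with respect to `S` exists and is
a `Γ`-factor of IID. -/
def FUSFIsFIID (Γ : Type*) [Group Γ] (S : Set Γ) : Prop :=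
  ∃ μ : Measure (Set (Sym2 Γ)), IsFUSF (SimpleGraph.mulCayley S) μ ∧ IsFactorOfIID Γ μ

end Vale.Agent.P143
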