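import Vale.Agent.P143.Limit

open SimpleGraph MeasureTheory

namespace Vale.Agent.P143

variable {Γ : Type*} [Group Γ]

/-- the labels on the coset of `g`, read through the parametrisation `h ↦ g * h` -/
def lab (S₁ : Set Γ) (g : Γ) (U : Γ → unitInterval) : Subgroup.closure S₁ → unitInterval :=
  fun h => U (g * h)

/-- the factor map on the big group built from a factor map on the subgroup -/
def bigΦ (S₁ S₂ : Set Γ)
    (Φ₁ : (Subgroup.closure S₁ → unitInterval) → Set (Sym2 (Subgroup.closure S₁)))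
    (U : Γ → unitInterval) : Set (Sym2 Γ) :=
  ((mulCayley (S₁ ∪ S₂)).edgeSet ∩ cls S₁ ⁻¹' {none}) ∪
    ⋃ g : Γ, (Sym2.map (emb S₁ S₂ g) '' Φ₁ (lab S₁ g U)) ∩
      cls S₁ ⁻¹' {some (g : Γ ⧸ Subgroup.closure S₁)}

/-- equivariance of a factor map -/
def Equivariant (G : Type*) [Group G] (Φ : (G → unitInterval) → Set (Sym2 G)) : Prop :=
  ∀ (γ : G) (U : G → unitInterval), Φ (fun v => U (γ⁻¹ * v)) = Sym2.map (fun v => γ * v) '' Φ U

lemma rep_indep {S₁ S₂ : Set Γ}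
    {Φ₁ : (Subgroup.closure S₁ → unitInterval) → Set (Sym2 (Subgroup.closure S₁))}
    (hΦ₁ : Equivariant _ Φ₁) (g : Γ) (k : Subgroup.closure S₁) (U : Γ → unitInterval) :
    Sym2.map (emb S₁ S₂ (g * k)) '' Φ₁ (lab S₁ (g * k) U) =
      Sym2.map (emb S₁ S₂ g) '' Φ₁ (lab S₁ g U) := by
  have h1 : lab S₁ (g * k) U = fun v => (lab S₁ g U) ((k⁻¹)⁻¹ * v) := by
    funext v
    simp [lab, mul_assoc]
  rw [h1, hΦ₁ k⁻¹ (lab S₁ g U), Set.image_image]
  apply Set.image_congr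
  intro e _
  rw [Sym2.map_map]
  congr 1
  funext v
  simp [emb_apply, mul_assoc]

lemma bigΦ_inter_none (S₁ S₂ : Set Γ)
    (Φ₁ : (Subgroup.closure S₁ → unitInterval) → Set (Sym2 (Subgroup.closure S₁)))
    (U : Γ → unitInterval) :
    bigΦ S₁ S₂ Φ₁ U ∩ cls S₁ ⁻¹' {none} = (mulCayley (S₁ ∪ S₂)).edgeSet ∩ cls S₁ ⁻¹' {none} := by
  ext e
  constructor
  · rintro ⟨h | h, hn⟩
    · exact h
    · rw [Set.mem_iUnion] at h
      obtain ⟨g, _, hg⟩ := h
      rw [Set.mem_preimage, Set.mem_singleton_iff] at hg hn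
      rw [hg] at hn
      exact absurd hn (by simp)
  · intro h
    exact ⟨Or.inl h, h.2⟩

lemma bigΦ_inter_some {S₁ S₂ : Set Γ}
    {Φ₁ : (Subgroup.closure S₁ → unitInterval) → Set (Sym2 (Subgroup.closure S₁))}
    (hΦ₁ : Equivariant _ Φ₁) (U : Γ → unitInterval) (c : Γ ⧸ Subgroup.closure S₁) :
    bigΦ S₁ S₂ Φ₁ U ∩ cls S₁ ⁻¹' {some c} =
      (Sym2.map (emb S₁ S₂ c.out) '' Φ₁ (lab S₁ c.out U)) ∩ cls S₁ ⁻¹' {some c} := by
  have hc : ((c.out : Γ) : Γ ⧸ Subgroup.closure S₁) = c := c.out_eq'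
  ext e
  constructor
  · rintro ⟨h | h, hn⟩
    · have h2 := h.2
      rw [Set.mem_preimage, Set.mem_singleton_iff] at h2 hn
      rw [h2] at hn
      exact absurd hn (by simp)
    · rw [Set.mem_iUnion] at h
      obtain ⟨g, hg1, hg⟩ := h
      refine ⟨?_, hn⟩
      rw [Set.mem_preimage, Set.mem_singleton_iff] at hg hn
      rw [hg, Option.some_inj, ← hc, eq_comm, QuotientGroup.eq] at hn
      have := rep_indep (S₂ := S₂) hΦ₁ c.out ⟨_, hn⟩ U
      simp only [mul_inv_cancel_left] at this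
      rw [← this]
      exact hg1
  · rintro ⟨h, hn⟩
    refine ⟨Or.inr ?_, hn⟩
    rw [Set.mem_iUnion]
    exact ⟨c.out, h, by rw [hc]; exact hn⟩

lemma cls_map_mul_eq_none_iff (S₁ : Set Γ) (γ : Γ) (e : Sym2 Γ) :
    cls S₁ (Sym2.map (fun v => γ * v) e) = none ↔ cls S₁ e = none := by
  induction e with
  | h x y =>
    rw [Sym2.map_mk, cls_eq_none_iff, cls_eq_none_iff, mem_edgeSet, mem_edgeSet,
      mulCayley_adj_mul_iff_right]

lemma cls_map_mul_eq_some_iff (S₁ : Set Γ) (γ g : Γ) (e : Sym2 Γ) :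
    cls S₁ (Sym2.map (fun v => γ * v) e) = some ((γ * g : Γ) : Γ ⧸ Subgroup.closure S₁) ↔
      cls S₁ e = some (g : Γ ⧸ Subgroup.closure S₁) := by
  induction e with
  | h x y =>
    rw [Sym2.map_mk, cls_mk_eq_some_iff, cls_mk_eq_some_iff, mulCayley_adj_mul_iff_right,
      QuotientGroup.eq, QuotientGroup.eq]
    simp [mul_assoc]

lemma mem_edgeSet_map_mul_iff (S : Set Γ) (γ : Γ) (e : Sym2 Γ) :
    Sym2.map (fun v => γ * v) e ∈ (mulCayley S).edgeSet ↔ e ∈ (mulCayley S).edgeSet := by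
  induction e with
  | h x y => rw [Sym2.map_mk, mem_edgeSet, mem_edgeSet, mulCayley_adj_mul_iff_right]

lemma bigΦ_mem_map_iff (S₁ S₂ : Set Γ)
    (Φ₁ : (Subgroup.closure S₁ → unitInterval) → Set (Sym2 (Subgroup.closure S₁)))
    (γ : Γ) (U : Γ → unitInterval) (e : Sym2 Γ) :
    Sym2.map (fun v => γ * v) e ∈ bigΦ S₁ S₂ Φ₁ (fun v => U (γ⁻¹ * v)) ↔
      e ∈ bigΦ S₁ S₂ Φ₁ U := by
  have hinj : Function.Injective (Sym2.map (fun v : Γ => γ * v)) :=
    Sym2.map.injective (mul_right_injective γ)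
  have hlab : ∀ g, lab S₁ (γ * g) (fun v => U (γ⁻¹ * v)) = lab S₁ g U := by
    intro g; funext h; simp [lab, mul_assoc]
  have hemb : ∀ g (e₁ : Sym2 (Subgroup.closure S₁)),
      Sym2.map (emb S₁ S₂ (γ * g)) e₁ = Sym2.map (fun v => γ * v) (Sym2.map (emb S₁ S₂ g) e₁) := by
    intro g e₁
    rw [Sym2.map_map]
    congr 1
    funext v
    simp [emb_apply, mul_assoc]
  unfold bigΦ
  simp only [Set.mem_union, Set.mem_inter_iff, Set.mem_preimage, Set.mem_singleton_iff,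
    Set.mem_iUnion, Set.mem_image]
  rw [mem_edgeSet_map_mul_iff, cls_map_mul_eq_none_iff]
  apply or_congr Iff.rfl
  constructor
  · rintro ⟨g, ⟨e₁, he₁, heq⟩, hcls⟩
    refine ⟨γ⁻¹ * g, ⟨e₁, ?_, ?_⟩, ?_⟩
    · have := hlab (γ⁻¹ * g)
      rw [mul_inv_cancel_left] at this
      rw [← this]; exact he₁
    · apply hinj
      rw [← hemb, mul_inv_cancel_left]; exact heq
    · rw [← cls_map_mul_eq_some_iff S₁ γ, mul_inv_cancel_left]; exact hcls
  · rintro ⟨g, ⟨e₁, he₁, heq⟩, hcls⟩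
    refine ⟨γ * g, ⟨e₁, ?_, ?_⟩, ?_⟩
    · rw [hlab]; exact he₁
    · rw [hemb, heq]
    · rw [cls_map_mul_eq_some_iff]; exact hcls

lemma bigΦ_equivariant (S₁ S₂ : Set Γ)
    (Φ₁ : (Subgroup.closure S₁ → unitInterval) → Set (Sym2 (Subgroup.closure S₁))) :
    Equivariant Γ (bigΦ S₁ S₂ Φ₁) := by
  intro γ U
  ext e
  constructor
  · intro he
    refine ⟨Sym2.map (fun v => γ⁻¹ * v) e, ?_, ?_⟩
    · rw [← bigΦ_mem_map_iff S₁ S₂ Φ₁ γ U, Sym2.map_map]
      have : ((fun v => γ * v) ∘ fun v => γ⁻¹ * v) = id := by funext v; simp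
      rw [this, Sym2.map_id]; exact he
    · rw [Sym2.map_map]
      have : ((fun v => γ * v) ∘ fun v => γ⁻¹ * v) = id := by funext v; simp
      rw [this, Sym2.map_id]; rfl
  · rintro ⟨e', he', rfl⟩
    exact (bigΦ_mem_map_iff S₁ S₂ Φ₁ γ U e').mpr he'

end Vale.Agent.P143
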