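import Vale.Agent.P143.Factor

open SimpleGraph MeasureTheory

namespace Vale.Agent.P143

variable {Γ : Type*} [Group Γ]

instance (Γ : Type*) : IsProbabilityMeasure (iidLabels Γ) := by
  unfold iidLabels; infer_instance

lemma measurable_lab (S₁ : Set Γ) (g : Γ) : Measurable (lab S₁ g) :=
  measurable_pi_lambda _ fun _ => measurable_pi_apply _

lemma measurableSet_cyl {α : Type*} (B : Finset α) (A : Set α) :
    MeasurableSet {ω : Set α | ω ∩ ↑B = A} := by
  by_cases hAB : A ⊆ ↑B
  · have : {ω : Set α | ω ∩ ↑B = A} = ⋂ e ∈ B, {ω : Set α | e ∈ ω ↔ e ∈ A} := by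
      ext ω
      simp only [Set.mem_ofPred_eq, Set.mem_iInter]
      constructor
      · rintro rfl e he
        exact ⟨fun h => ⟨h, he⟩, fun h => h.1⟩
      · intro h
        ext e
        constructor
        · rintro ⟨h1, h2⟩; exact (h e h2).mp h1
        · intro h1; exact ⟨(h e (hAB h1)).mpr h1, hAB h1⟩
    rw [this]
    refine Finset.measurableSet_biInter B fun e _ => ?_
    by_cases he : e ∈ A
    · simpa [he] using measurableSet_mem e
    · simpa [he] using measurableSet_notMem e
  · have : {ω : Set α | ω ∩ ↑B = A} = ∅ := by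
      ext ω
      simp only [Set.mem_ofPred_eq, Set.mem_empty_iff_false, iff_false]
      rintro rfl
      exact hAB Set.inter_subset_right
    rw [this]; exact MeasurableSet.empty

lemma out_mul_injective (S₁ : Set Γ) : Function.Injective
    (fun p : (Γ ⧸ Subgroup.closure S₁) × Subgroup.closure S₁ => (p.1.out : Γ) * p.2) := by
  rintro ⟨c, h⟩ ⟨c', h'⟩ heq
  simp only at heq
  have h1 : ((c.out * h : Γ) : Γ ⧸ Subgroup.closure S₁) = c := by
    rw [QuotientGroup.mk_mul_of_mem _ h.2]; exact c.out_eq'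
  have h2 : ((c'.out * h' : Γ) : Γ ⧸ Subgroup.closure S₁) = c' := by
    rw [QuotientGroup.mk_mul_of_mem _ h'.2]; exact c'.out_eq'
  have hc : c = c' := by rw [← h1, ← h2, heq]
  subst hc
  simp only [mul_right_inj] at heq
  rw [Subtype.ext heq]

lemma map_labs (S₁ : Set Γ) :
    (iidLabels Γ).map (fun U (c : Γ ⧸ Subgroup.closure S₁) => lab S₁ c.out U) =
      Measure.infinitePi (fun _ : Γ ⧸ Subgroup.closure S₁ => iidLabels (Subgroup.closure S₁)) := by
  have h1 := Measure.map_infinitePi_infinitePi_of_inj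
    (P := fun _ : Γ => (volume : Measure unitInterval)) (out_mul_injective S₁)
  have h2 := Measure.infinitePi_map_curry
    (μ := fun (_ : Γ ⧸ Subgroup.closure S₁) (_ : Subgroup.closure S₁) =>
      (volume : Measure unitInterval))
  unfold iidLabels
  rw [← h2, ← h1, Measure.map_map (by fun_prop) (by fun_prop)]
  rfl

lemma measure_pieces (S₁ : Set Γ) (C : Finset (Γ ⧸ Subgroup.closure S₁))
    (D : (Γ ⧸ Subgroup.closure S₁) → Set (Subgroup.closure S₁ → unitInterval))
    (hD : ∀ c ∈ C, MeasurableSet (D c)) :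
    iidLabels Γ {U | ∀ c ∈ C, lab S₁ c.out U ∈ D c} =
      ∏ c ∈ C, iidLabels (Subgroup.closure S₁) (D c) := by
  have hmeas : Measurable (fun U (c : Γ ⧸ Subgroup.closure S₁) => lab S₁ c.out U) :=
    measurable_pi_lambda _ fun c => measurable_lab S₁ _
  have hset : {U | ∀ c ∈ C, lab S₁ c.out U ∈ D c} =
      (fun U (c : Γ ⧸ Subgroup.closure S₁) => lab S₁ c.out U) ⁻¹' (Set.pi ↑C D) := by
    ext U; simp [Set.mem_pi]
  rw [hset, ← Measure.map_apply hmeas (MeasurableSet.pi C.countable_toSet hD), map_labs,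
    Measure.infinitePi_pi _ hD]

end Vale.Agent.P143
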