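import Vale.Agent.P143.Pieces

open SimpleGraph MeasureTheory Filter Topology

namespace Vale.Agent.P143

variable {Γ : Type*} [Group Γ]

lemma finite_edgeSet_of_finite_verts {V : Type*} {G : SimpleGraph V} (H : G.Subgraph)
    (h : H.verts.Finite) : H.edgeSet.Finite := by
  classical
  refine (h.toFinset.sym2.finite_toSet).subset ?_
  intro e he
  rw [Finset.mem_coe, Finset.mem_sym2_iff]
  intro a ha
  rw [Set.Finite.mem_toFinset]
  exact H.mem_verts_of_mem_edge he ha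

lemma comap_exhaustion {S₁ S₂ : Set Γ} (hb : BridgeHyp S₁ S₂)
    (H : ℕ → (mulCayley (S₁ ∪ S₂)).Subgraph) (hH : IsExhaustion _ H) (r : Γ) :
    ∃ n₀, IsExhaustion (mulCayley (Subtype.val ⁻¹' S₁ : Set (Subgroup.closure S₁)))
      (fun n => (H (n + n₀)).comap (emb S₁ S₂ r)) := by
  have hr : r ∈ (⨆ n, H n).verts := by rw [hH.iSup_eq]; trivial
  rw [Subgraph.verts_iSup, Set.mem_iUnion] at hr
  obtain ⟨n₀, hn₀⟩ := hr
  refine ⟨n₀, ⟨fun n => ?_, fun n => ?_, fun n m hnm => ?_, ?_⟩⟩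
  · exact (hH.finite (n + n₀)).preimage (emb_injective S₁ S₂ r).injOn
  · exact comap_connected hb r _ (hH.connected _)
      ((hH.mono (Nat.le_add_left n₀ n)).1 hn₀)
  · exact Subgraph.comap_monotone _ (hH.mono (Nat.add_le_add_right hnm n₀))
  · ext k l
    · simp only [Subgraph.verts_iSup, Set.mem_iUnion, Subgraph.comap_verts, Set.mem_preimage,
        Subgraph.verts_top, Set.mem_univ, iff_true]
      have hk : emb S₁ S₂ r k ∈ (⨆ n, H n).verts := by rw [hH.iSup_eq]; trivial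
      rw [Subgraph.verts_iSup, Set.mem_iUnion] at hk
      obtain ⟨n, hn⟩ := hk
      exact ⟨n, (hH.mono (Nat.le_add_right n n₀)).1 hn⟩
    · simp only [Subgraph.iSup_adj, Subgraph.comap_adj, Subgraph.top_adj]
      constructor
      · rintro ⟨n, h1, _⟩; exact h1
      · intro h1
        have hk : (⨆ n, H n).Adj (emb S₁ S₂ r k) (emb S₁ S₂ r l) := by
          rw [hH.iSup_eq]; exact (emb S₁ S₂ r).map_adj h1
        rw [Subgraph.iSup_adj] at hk
        obtain ⟨n, hn⟩ := hk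
        exact ⟨n, h1, (hH.mono (Nat.le_add_right n n₀)).2 hn⟩

lemma eventually_edgeSet_inter {V : Type*} {G : SimpleGraph V} (H : ℕ → G.Subgraph)
    (hH : IsExhaustion G H) (B : Finset (Sym2 V)) :
    ∀ᶠ n in atTop, (H n).edgeSet ∩ ↑B = G.edgeSet ∩ ↑B := by
  have h1 : ∀ᶠ n in atTop, ∀ e ∈ B, e ∈ G.edgeSet → e ∈ (H n).edgeSet := by
    rw [Filter.eventually_all_finset]
    intro e _
    by_cases he : e ∈ G.edgeSet
    · have : e ∈ (⨆ n, H n).edgeSet := by rw [hH.iSup_eq]; simpa using he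
      rw [Subgraph.edgeSet_iSup, Set.mem_iUnion] at this
      obtain ⟨n, hn⟩ := this
      filter_upwards [eventually_ge_atTop n] with m hm _
      exact Subgraph.edgeSet_mono (hH.mono hm) hn
    · exact Eventually.of_forall fun n h => absurd h he
  filter_upwards [h1] with n hn
  ext e
  constructor
  · rintro ⟨h, hB⟩; exact ⟨(H n).edgeSet_subset h, hB⟩
  · rintro ⟨h, hB⟩; exact ⟨hn e hB h, hB⟩

open Classical in
/-- the limiting probability attached to a class -/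
noncomputable def pieceLim (S₁ S₂ : Set Γ) (μ₁ : Measure (Set (Sym2 (Subgroup.closure S₁))))
    (B A : Set (Sym2 Γ)) : Option (Γ ⧸ Subgroup.closure S₁) → ℝ
  | none => if ((mulCayley (S₁ ∪ S₂)).edgeSet ∩ cls S₁ ⁻¹' {none}) ∩ B = A ∩ cls S₁ ⁻¹' {none}
      then 1 else 0
  | some c => (μ₁ {ω | ω ∩ Sym2.map (emb S₁ S₂ c.out) ⁻¹' B =
      Sym2.map (emb S₁ S₂ c.out) ⁻¹' (A ∩ cls S₁ ⁻¹' {some c})}).toReal

lemma tendsto_clsProb {S₁ S₂ : Set Γ} (hb : BridgeHyp S₁ S₂)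
    (μ₁ : Measure (Set (Sym2 (Subgroup.closure S₁))))
    (h₁ : IsFUSF (mulCayley (Subtype.val ⁻¹' S₁ : Set (Subgroup.closure S₁))) μ₁)
    (H : ℕ → (mulCayley (S₁ ∪ S₂)).Subgraph) (hH : IsExhaustion _ H)
    (B : Finset (Sym2 Γ)) (A : Set (Sym2 Γ)) (i : Option (Γ ⧸ Subgroup.closure S₁)) :
    Tendsto (fun n => clsProb ((H n).edgeSet ∩ cls S₁ ⁻¹' {i}) {F | F ∩ ↑B = A ∩ cls S₁ ⁻¹' {i}})
      atTop (𝓝 (pieceLim S₁ S₂ μ₁ B A i)) := by
  classical
  cases i with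
  | none =>
    apply tendsto_const_nhds.congr'
    filter_upwards [eventually_edgeSet_inter H hH B] with n hn
    rw [clsProb_of_acyc (acyc_cls_none hb (H n).edgeSet_subset)]
    have e1 : ((H n).edgeSet ∩ cls S₁ ⁻¹' {none}) ∩ ↑B =
        ((mulCayley (S₁ ∪ S₂)).edgeSet ∩ cls S₁ ⁻¹' {none}) ∩ ↑B := by
      rw [Set.inter_right_comm, hn, Set.inter_right_comm]
    simp only [pieceLim, Set.mem_ofPred_eq, e1]
  | some c =>
    obtain ⟨n₀, hn₀⟩ := comap_exhaustion hb H hH c.out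
    have hφ := Sym2.map.injective (emb_injective S₁ S₂ c.out)
    have hlim := h₁.2 _ hn₀ (B.preimage _ hφ.injOn)
      (Sym2.map (emb S₁ S₂ c.out) ⁻¹' (A ∩ cls S₁ ⁻¹' {some c}))
    rw [Finset.coe_preimage] at hlim
    rw [← tendsto_add_atTop_iff_nat n₀]
    refine hlim.congr fun n => ?_
    have hc : ((c.out : Γ) : Γ ⧸ Subgroup.closure S₁) = c := c.out_eq'
    have hpiece := piece_eq S₁ S₂ c.out (H (n + n₀))
    rw [hc] at hpiece
    rw [hpiece, clsProb_image (emb_injective S₁ S₂ c.out), ustProb_eq_clsProb _ (hn₀.connected n)]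
    have := cls_some_subset_range S₁ S₂ c.out
    rw [hc] at this
    exact Set.inter_subset_right.trans this

lemma inter_eq_iff_classes' {V ι : Type*} [DecidableEq ι] (κ : Sym2 V → ι) (B : Finset (Sym2 V))
    (A F : Set (Sym2 V)) (hAB : A ⊆ ↑B) :
    F ∩ ↑B = A ↔ ∀ i ∈ B.image κ,
      (F ∩ κ ⁻¹' {i}) ∩ ↑(B.filter (fun e => κ e = i)) = A ∩ κ ⁻¹' {i} := by
  rw [inter_eq_iff_classes κ (B.image κ) B A F hAB (fun e he => Finset.mem_image_of_mem _ he)]
  refine forall₂_congr fun i _ => ?_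
  have : (F ∩ κ ⁻¹' {i}) ∩ ↑(B.filter (fun e => κ e = i)) = (F ∩ κ ⁻¹' {i}) ∩ ↑B := by
    ext e
    simp only [Set.mem_inter_iff, Set.mem_preimage, Set.mem_singleton_iff, Finset.coe_filter,
      Set.mem_ofPred_eq, Finset.mem_coe]
    tauto
  rw [this]

open Classical in
lemma tendsto_ustProb {S₁ S₂ : Set Γ} (hb : BridgeHyp S₁ S₂)
    (μ₁ : Measure (Set (Sym2 (Subgroup.closure S₁))))
    (h₁ : IsFUSF (mulCayley (Subtype.val ⁻¹' S₁ : Set (Subgroup.closure S₁))) μ₁)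
    (H : ℕ → (mulCayley (S₁ ∪ S₂)).Subgraph) (hH : IsExhaustion _ H)
    (B : Finset (Sym2 Γ)) (A : Set (Sym2 Γ)) (hAB : A ⊆ ↑B) :
    Tendsto (fun n => ustProb (H n) {F | F ∩ ↑B = A}) atTop
      (𝓝 (∏ i ∈ B.image (cls S₁),
        pieceLim S₁ S₂ μ₁ ↑(B.filter (fun e => cls S₁ e = i)) A i)) := by
  have hfac : ∀ n, ustProb (H n) {F | F ∩ ↑B = A} =
      ∏ i ∈ B.image (cls S₁),
        clsProb ((H n).edgeSet ∩ cls S₁ ⁻¹' {i})
          {F | F ∩ ↑(B.filter (fun e => cls S₁ e = i)) = A ∩ cls S₁ ⁻¹' {i}} := by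
    intro n
    rw [ustProb_eq_clsProb _ (hH.connected n),
      ← clsProb_classes (cls S₁)
        (fun i => {F | F ∩ ↑(B.filter (fun e => cls S₁ e = i)) = A ∩ cls S₁ ⁻¹' {i}}) _ _
        (finite_edgeSet_of_finite_verts _ (hH.finite n)) (monoCyc_cls hb (H n).edgeSet_subset)]
    congr 1
    ext F
    exact inter_eq_iff_classes' (cls S₁) B A F hAB
  simp only [hfac]
  exact tendsto_finsetProd _ fun i _ => tendsto_clsProb hb μ₁ h₁ H hH _ A i

end Vale.Agent.P143
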