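import Vale.Agent.P143.Law

open SimpleGraph MeasureTheory Filter Topology

namespace Vale.Agent.P143

variable {Γ : Type*} [Group Γ]

lemma image_inter_eq_iff {α β : Type*} {φ : α → β} (hφ : Function.Injective φ) (X : Set α)
    (B A : Set β) (hA : A ⊆ Set.range φ) :
    φ '' X ∩ B = A ↔ X ∩ φ ⁻¹' B = φ ⁻¹' A := by
  constructor
  · intro h
    rw [← h, Set.preimage_inter, Set.preimage_image_eq _ hφ]
  · intro h
    rw [← Set.image_inter_preimage, h, Set.image_preimage_eq_iff.mpr hA]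

lemma measurable_bigΦ {S₁ S₂ : Set Γ}
    {Φ₁ : (Subgroup.closure S₁ → unitInterval) → Set (Sym2 (Subgroup.closure S₁))}
    (hΦ₁ : Equivariant _ Φ₁) (hm : Measurable Φ₁) : Measurable (bigΦ S₁ S₂ Φ₁) := by
  rw [measurable_set_iff]
  intro e
  rw [← measurableSet_setOfPred]
  rcases hcls : cls S₁ e with _ | c
  · have : ∀ U, e ∈ bigΦ S₁ S₂ Φ₁ U ↔ e ∈ (mulCayley (S₁ ∪ S₂)).edgeSet := by
      intro U
      have h := bigΦ_inter_none S₁ S₂ Φ₁ U
      constructor
      · intro he; exact (h.subset ⟨he, hcls⟩).1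
      · intro he; exact (h.superset ⟨he, hcls⟩).1
    simp only [this]
    exact MeasurableSet.const _
  · have hc : ((c.out : Γ) : Γ ⧸ Subgroup.closure S₁) = c := c.out_eq'
    have hrange := cls_some_subset_range S₁ S₂ c.out
    rw [hc] at hrange
    obtain ⟨e₁, rfl⟩ := hrange hcls
    have hφ := Sym2.map.injective (emb_injective S₁ S₂ c.out)
    have : ∀ U, Sym2.map (emb S₁ S₂ c.out) e₁ ∈ bigΦ S₁ S₂ Φ₁ U ↔
        e₁ ∈ Φ₁ (lab S₁ c.out U) := by
      intro U
      have h := bigΦ_inter_some (S₂ := S₂) hΦ₁ U c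
      constructor
      · intro he
        obtain ⟨e', he', heq⟩ := (h.subset ⟨he, hcls⟩).1
        exact hφ heq ▸ he'
      · intro he; exact (h.superset ⟨⟨e₁, he, rfl⟩, hcls⟩).1
    simp only [this]
    exact (measurable_lab S₁ c.out) (hm (measurableSet_mem e₁))

open Classical in
lemma law_bigΦ {S₁ S₂ : Set Γ}
    {Φ₁ : (Subgroup.closure S₁ → unitInterval) → Set (Sym2 (Subgroup.closure S₁))}
    (hΦ₁ : Equivariant _ Φ₁) (hm : Measurable Φ₁) (B : Finset (Sym2 Γ)) (A : Set (Sym2 Γ))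
    (hAB : A ⊆ ↑B) :
    ((iidLabels Γ).map (bigΦ S₁ S₂ Φ₁) {ω | ω ∩ ↑B = A}).toReal =
      ∏ i ∈ B.image (cls S₁), pieceLim S₁ S₂ ((iidLabels (Subgroup.closure S₁)).map Φ₁)
        ↑(B.filter (fun e => cls S₁ e = i)) A i := by
  set μ₁ := (iidLabels (Subgroup.closure S₁)).map Φ₁ with hμ₁
  set C := B.image (cls S₁) with hC
  rw [Measure.map_apply (measurable_bigΦ hΦ₁ hm) (measurableSet_cyl B A)]
  -- the events attached to the cosets
  let Cyl : (Γ ⧸ Subgroup.closure S₁) → Set (Set (Sym2 (Subgroup.closure S₁))) := fun c =>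
    {ω | ω ∩ Sym2.map (emb S₁ S₂ c.out) ⁻¹' ↑(B.filter (fun e => cls S₁ e = some c)) =
      Sym2.map (emb S₁ S₂ c.out) ⁻¹' (A ∩ cls S₁ ⁻¹' {some c})}
  have hCyl : ∀ c, MeasurableSet (Cyl c) := by
    intro c
    have hφ := Sym2.map.injective (emb_injective S₁ S₂ c.out)
    have := measurableSet_cyl ((B.filter (fun e => cls S₁ e = some c)).preimage _ hφ.injOn)
      (Sym2.map (emb S₁ S₂ c.out) ⁻¹' (A ∩ cls S₁ ⁻¹' {some c}))
    rwa [Finset.coe_preimage] at this
  let D : (Γ ⧸ Subgroup.closure S₁) → Set (Subgroup.closure S₁ → unitInterval) :=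
    fun c => Φ₁ ⁻¹' Cyl c
  have hD : ∀ c, MeasurableSet (D c) := fun c => hm (hCyl c)
  let p : Prop := ((mulCayley (S₁ ∪ S₂)).edgeSet ∩ cls S₁ ⁻¹' {none}) ∩
    ↑(B.filter (fun e => cls S₁ e = none)) = A ∩ cls S₁ ⁻¹' {none}
  have hsome : ∀ c, pieceLim S₁ S₂ μ₁ ↑(B.filter (fun e => cls S₁ e = some c)) A (some c) =
      (iidLabels (Subgroup.closure S₁) (D c)).toReal := by
    intro c
    simp only [pieceLim]
    rw [hμ₁, Measure.map_apply hm (hCyl c)]
  have hnone : pieceLim S₁ S₂ μ₁ ↑(B.filter (fun e => cls S₁ e = none)) A none =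
      if p then 1 else 0 := rfl
  -- pointwise description of the event
  have hev : ∀ U, bigΦ S₁ S₂ Φ₁ U ∩ ↑B = A ↔
      (none ∈ C → p) ∧ ∀ c ∈ C.eraseNone, lab S₁ c.out U ∈ D c := by
    intro U
    rw [inter_eq_iff_classes' (cls S₁) B A _ hAB]
    have hs : ∀ c, ((bigΦ S₁ S₂ Φ₁ U ∩ cls S₁ ⁻¹' {some c}) ∩
        ↑(B.filter (fun e => cls S₁ e = some c)) = A ∩ cls S₁ ⁻¹' {some c}) ↔
        lab S₁ c.out U ∈ D c := by
      intro c
      have hc : ((c.out : Γ) : Γ ⧸ Subgroup.closure S₁) = c := c.out_eq'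
      have hrange := cls_some_subset_range S₁ S₂ c.out
      rw [hc] at hrange
      have hφ := Sym2.map.injective (emb_injective S₁ S₂ c.out)
      rw [bigΦ_inter_some hΦ₁ U c]
      have e1 : (Sym2.map (emb S₁ S₂ c.out) '' Φ₁ (lab S₁ c.out U) ∩ cls S₁ ⁻¹' {some c}) ∩
          ↑(B.filter (fun e => cls S₁ e = some c)) =
          Sym2.map (emb S₁ S₂ c.out) '' Φ₁ (lab S₁ c.out U) ∩
          ↑(B.filter (fun e => cls S₁ e = some c)) := by
        ext e
        simp only [Set.mem_inter_iff, Set.mem_preimage, Set.mem_singleton_iff, Finset.coe_filter,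
          Set.mem_ofPred_eq]
        tauto
      rw [e1, image_inter_eq_iff hφ _ _ _ (Set.inter_subset_right.trans hrange)]
      rfl
    constructor
    · intro h
      refine ⟨fun hn => ?_, fun c hc => ?_⟩
      · have := h none hn
        rwa [bigΦ_inter_none] at this
      · exact (hs c).mp (h (some c) (Finset.mem_eraseNone.mp hc))
    · rintro ⟨h1, h2⟩ i hi
      cases i with
      | none => rw [bigΦ_inter_none]; exact h1 hi
      | some c => exact (hs c).mpr (h2 c (Finset.mem_eraseNone.mpr hi))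
  have hpre : bigΦ S₁ S₂ Φ₁ ⁻¹' {ω | ω ∩ ↑B = A} =
      {U | (none ∈ C → p) ∧ ∀ c ∈ C.eraseNone, lab S₁ c.out U ∈ D c} := by
    ext U; exact hev U
  rw [hpre]
  by_cases hp : none ∈ C → p
  · have h1 : {U | (none ∈ C → p) ∧ ∀ c ∈ C.eraseNone, lab S₁ c.out U ∈ D c} =
        {U | ∀ c ∈ C.eraseNone, lab S₁ c.out U ∈ D c} := by
      ext U; exact ⟨fun h => h.2, fun h => ⟨hp, h⟩⟩
    rw [h1, measure_pieces S₁ _ D (fun c _ => hD c), ENNReal.toReal_prod,
      Finset.prod_eraseNone (fun c => (iidLabels (Subgroup.closure S₁) (D c)).toReal) C]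
    apply Finset.prod_congr rfl
    intro i hi
    cases i with
    | none => rw [hnone, if_pos (hp hi)]; rfl
    | some c => rw [hsome c]; rfl
  · have h1 : {U | (none ∈ C → p) ∧ ∀ c ∈ C.eraseNone, lab S₁ c.out U ∈ D c} = ∅ := by
      ext U
      simp only [Set.mem_empty_iff_false, iff_false]
      exact fun h => hp h.1
    rw [h1, measure_empty, ENNReal.toReal_zero]
    rw [Classical.not_imp] at hp
    symm
    apply Finset.prod_eq_zero hp.1
    rw [hnone, if_neg hp.2]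

/-- Closure of the class of Cayley graphs whose FUSF is a factor of IID under adding bridges. -/
theorem fusfIsFIID_of_bridges (S₁ S₂ : Set Γ) (hb : BridgeHyp S₁ S₂)
    (h₁ : FUSFIsFIID (Subgroup.closure S₁) (Subtype.val ⁻¹' S₁)) :
    FUSFIsFIID Γ (S₁ ∪ S₂) := by
  classical
  obtain ⟨μ₁, hμ₁, Φ₁, hm, heq, hlaw⟩ := h₁
  have hΦ₁ : Equivariant _ Φ₁ := heq
  refine ⟨(iidLabels Γ).map (bigΦ S₁ S₂ Φ₁), ⟨?_, ?_⟩,
    ⟨bigΦ S₁ S₂ Φ₁, measurable_bigΦ hΦ₁ hm, bigΦ_equivariant S₁ S₂ Φ₁, rfl⟩⟩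
  · exact Measure.isProbabilityMeasure_map (measurable_bigΦ hΦ₁ hm).aemeasurable
  · intro H hH B A
    by_cases hAB : A ⊆ ↑B
    · rw [law_bigΦ hΦ₁ hm B A hAB, hlaw]
      exact tendsto_ustProb hb μ₁ hμ₁ H hH B A hAB
    · have hempty : {F : Set (Sym2 Γ) | F ∩ ↑B = A} = ∅ := by
        ext ω
        simp only [Set.mem_ofPred_eq, Set.mem_empty_iff_false, iff_false]
        rintro rfl
        exact hAB Set.inter_subset_right
      rw [hempty]
      simp [ustProb]

end Vale.Agent.P143
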