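import Vale.Agent.P143.Cayley

open SimpleGraph

namespace Vale.Agent.P143

variable {Γ : Type*} [Group Γ]

/-- every edge of the Cayley graph of `S₁ ∪ S₂` outside the Cayley graph of `S₁` is a bridge -/
def BridgeHyp (S₁ S₂ : Set Γ) : Prop :=
  ∀ e ∈ (mulCayley (S₁ ∪ S₂)).edgeSet, e ∉ (mulCayley S₁).edgeSet →
    (mulCayley (S₁ ∪ S₂)).IsBridge e

lemma cycle_edges_in_sub {S₁ S₂ : Set Γ} (hb : BridgeHyp S₁ S₂) {v : Γ}
    (c : (mulCayley (S₁ ∪ S₂)).Walk v v) (hc : c.IsCycle) :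
    ∀ e ∈ c.edges, e ∈ (mulCayley S₁).edgeSet := by
  intro e he
  by_contra hne
  exact (hb e (c.edges_subset_edgeSet he) hne).notMem_edges_of_isCycle hc he

lemma walk_cls {S₁ S₂ : Set Γ} {u v : Γ} (p : (mulCayley (S₁ ∪ S₂)).Walk u v)
    (hp : ∀ e ∈ p.edges, e ∈ (mulCayley S₁).edgeSet) :
    ∀ e ∈ p.edges, cls S₁ e = some (u : Γ ⧸ Subgroup.closure S₁) := by
  induction p with
  | nil => intro e he; simp at he
  | @cons a b c h p ih =>
    have hab : (mulCayley S₁).Adj a b := hp s(a, b) (by simp)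
    intro e he
    rw [Walk.edges_cons, List.mem_cons] at he
    rcases he with rfl | he
    · exact cls_mk_of_adj hab
    · rw [coset_eq_of_adj hab]
      exact ih (fun e he => hp e (by simp [he])) e he

lemma fromEdgeSet_le_of_subset {V : Type*} {G : SimpleGraph V} {E : Set (Sym2 V)}
    (hE : E ⊆ G.edgeSet) : fromEdgeSet E ≤ G := by
  calc fromEdgeSet E ≤ fromEdgeSet G.edgeSet := fromEdgeSet_mono hE
    _ = G := fromEdgeSet_edgeSet _

lemma monoCyc_cls {S₁ S₂ : Set Γ} (hb : BridgeHyp S₁ S₂) {E : Set (Sym2 Γ)}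
    (hE : E ⊆ (mulCayley (S₁ ∪ S₂)).edgeSet) : MonoCyc E (cls S₁) := by
  intro v c hc
  have hle := fromEdgeSet_le_of_subset hE
  have h1 := cycle_edges_in_sub hb (c.mapLe hle) (hc.mapLe hle)
  have h2 := walk_cls (c.mapLe hle) h1
  exact ⟨_, by simpa using h2⟩

lemma acyc_cls_none {S₁ S₂ : Set Γ} (hb : BridgeHyp S₁ S₂) {E : Set (Sym2 Γ)}
    (hE : E ⊆ (mulCayley (S₁ ∪ S₂)).edgeSet) : Acyc (E ∩ cls S₁ ⁻¹' {none}) := by
  intro v c hc
  have hle : fromEdgeSet (E ∩ cls S₁ ⁻¹' {none}) ≤ mulCayley (S₁ ∪ S₂) :=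
    fromEdgeSet_le_of_subset (Set.inter_subset_left.trans hE)
  have h1 := cycle_edges_in_sub hb (c.mapLe hle) (hc.mapLe hle)
  cases c with
  | nil => simp at hc
  | @cons _ w _ hadj p =>
    have h2 : s(v, w) ∈ (mulCayley S₁).edgeSet := h1 s(v, w) (by simp)
    rw [fromEdgeSet_adj] at hadj
    have h3 : cls S₁ s(v, w) = none := hadj.1.2
    exact (cls_eq_none_iff.mp h3) h2

lemma reachable_mul_of_mem_closure {S₁ : Set Γ} {t : Γ} (ht : t ∈ Subgroup.closure S₁) :
    ∀ g : Γ, (mulCayley S₁).Reachable g (g * t) := by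
  induction ht using Subgroup.closure_induction with
  | mem t ht =>
    intro g
    by_cases h1 : t = 1
    · simp [h1]
    · apply Adj.reachable
      rw [mulCayley_adj]
      exact ⟨by simpa using h1, Or.inl (by simpa using ht)⟩
  | one => intro g; simp
  | mul a b _ _ iha ihb =>
    intro g
    rw [← mul_assoc]
    exact (iha g).trans (ihb (g * a))
  | inv a _ iha =>
    intro g
    have := iha (g * a⁻¹)
    simpa using this.symm

lemma path_edges_in_sub {S₁ S₂ : Set Γ} (hb : BridgeHyp S₁ S₂) {x y : Γ}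
    (p : (mulCayley (S₁ ∪ S₂)).Walk x y) (hp : p.IsPath)
    (hr : (mulCayley S₁).Reachable x y) : ∀ e ∈ p.edges, e ∈ (mulCayley S₁).edgeSet := by
  induction p with
  | nil => intro e he; simp at he
  | @cons a b c h q ih =>
    rw [Walk.cons_isPath_iff] at hp
    by_cases hab : (mulCayley S₁).Adj a b
    · intro e he
      rw [Walk.edges_cons, List.mem_cons] at he
      rcases he with rfl | he
      · exact hab
      · exact ih hp.1 (hab.symm.reachable.trans hr) e he
    · exfalso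
      have hbr := hb s(a, b) h hab
      rw [isBridge_iff_forall_walk_mem_edges] at hbr
      obtain ⟨w⟩ := hr
      have hle : mulCayley S₁ ≤ mulCayley (S₁ ∪ S₂) := mulCayley_mono Set.subset_union_left
      have hmem := hbr ((w.mapLe hle).append q.reverse)
      rw [Walk.edges_append, List.mem_append] at hmem
      rcases hmem with hmem | hmem
      · have : s(a, b) ∈ w.edges := by simpa using hmem
        exact hab (w.edges_subset_edgeSet this)
      · rw [Walk.edges_reverse, List.mem_reverse] at hmem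
        exact hp.2 (q.fst_mem_support_of_mem_edges hmem)

lemma lift_reach {S₁ S₂ : Set Γ} (r : Γ) (H : (mulCayley (S₁ ∪ S₂)).Subgraph) {x y : Γ}
    (p : (mulCayley (S₁ ∪ S₂)).Walk x y)
    (hp : ∀ e ∈ p.edges, e ∈ H.edgeSet ∧ e ∈ (mulCayley S₁).edgeSet) :
    ∀ (k : Subgroup.closure S₁) (_ : emb S₁ S₂ r k = x)
      (hkv : k ∈ (H.comap (emb S₁ S₂ r)).verts),
      ∃ (l : Subgroup.closure S₁) (hlv : l ∈ (H.comap (emb S₁ S₂ r)).verts),
        emb S₁ S₂ r l = y ∧ (H.comap (emb S₁ S₂ r)).coe.Reachable ⟨k, hkv⟩ ⟨l, hlv⟩ := by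
  induction p with
  | nil => intro k hk hkv; exact ⟨k, hkv, hk, Reachable.refl _⟩
  | @cons a b c h q ih =>
    intro k hk hkv
    obtain ⟨hH, hS⟩ := hp s(a, b) (by simp)
    have hS' : (mulCayley S₁).Adj a b := hS
    have hcos : (b : Γ ⧸ Subgroup.closure S₁) = r := by
      rw [← coset_eq_of_adj hS', ← hk, emb_apply, QuotientGroup.eq]
      simp
    obtain ⟨m, hm⟩ := mem_range_of_coset_eq (S₂ := S₂) hcos
    have hadj : (H.comap (emb S₁ S₂ r)).Adj k m := by
      rw [Subgraph.comap_adj]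
      refine ⟨(small_adj_iff r k m).mpr ?_, ?_⟩
      · rw [← emb_apply S₁ S₂, ← emb_apply S₁ S₂, hk, hm]; exact hS'
      · rw [hk, hm]; exact hH
    have hmv := (H.comap (emb S₁ S₂ r)).edge_vert hadj.symm
    obtain ⟨l, hlv, hl, hreach⟩ := ih (fun e he => hp e (by simp [he])) m hm hmv
    refine ⟨l, hlv, hl, Reachable.trans (Adj.reachable ?_) hreach⟩
    exact hadj

lemma comap_connected {S₁ S₂ : Set Γ} (hb : BridgeHyp S₁ S₂) (r : Γ)
    (H : (mulCayley (S₁ ∪ S₂)).Subgraph) (hH : H.Connected) (hr : r ∈ H.verts) :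
    (H.comap (emb S₁ S₂ r)).Connected := by
  rw [Subgraph.connected_iff']
  have hne : Nonempty (H.comap (emb S₁ S₂ r)).verts :=
    ⟨⟨1, by simp [emb_apply, hr]⟩⟩
  refine ⟨fun ⟨k, hk⟩ ⟨l, hl⟩ => ?_⟩
  have hk' : emb S₁ S₂ r k ∈ H.verts := hk
  have hl' : emb S₁ S₂ r l ∈ H.verts := hl
  obtain ⟨p, hp⟩ := hH.coe.exists_isPath ⟨_, hk'⟩ ⟨_, hl'⟩
  have hpath : (p.map H.hom).IsPath := Walk.IsPath.map H.hom_injective hp
  have hedge : ∀ e ∈ (p.map H.hom).edges, e ∈ H.edgeSet := by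
    intro e he
    rw [Walk.edges_map, List.mem_map] at he
    obtain ⟨e', he', rfl⟩ := he
    have := p.edges_subset_edgeSet he'
    induction e' with
    | h a b => exact this
  have hreach : (mulCayley S₁).Reachable (emb S₁ S₂ r k) (emb S₁ S₂ r l) := by
    have := reachable_mul_of_mem_closure (k⁻¹ * l).2 (r * k)
    simpa [emb_apply, mul_assoc] using this
  have hsub := path_edges_in_sub hb (p.map H.hom) hpath hreach
  obtain ⟨l', hlv', hl'', hR⟩ := lift_reach r H (p.map H.hom)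
    (fun e he => ⟨hedge e he, hsub e he⟩) k rfl hk
  have : l' = l := emb_injective S₁ S₂ r hl''
  subst this
  exact hR

end Vale.Agent.P143
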