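import Vale.Agent.P143.Count

open SimpleGraph

namespace Vale.Agent.P143

variable {V W : Type*}

lemma support_subset_range_of_image {f : W → V} {F₁ : Set (Sym2 W)} {u v : V}
    (p : (fromEdgeSet (Sym2.map f '' F₁)).Walk u v) (hu : u ∈ Set.range f) :
    ∀ x ∈ p.support, x ∈ Set.range f := by
  induction p with
  | nil => intro x hx; simp only [Walk.support_nil, List.mem_singleton] at hx; exact hx ▸ hu
  | @cons a b c h p ih =>
    intro x hx
    rw [Walk.support_cons, List.mem_cons] at hx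
    rcases hx with rfl | hx
    · exact hu
    · refine ih ?_ x hx
      rw [fromEdgeSet_adj] at h
      obtain ⟨⟨e, _, he⟩, _⟩ := h
      induction e with
      | h a' b' =>
        rw [Sym2.map_mk, Sym2.eq_iff] at he
        rcases he with ⟨_, h2⟩ | ⟨h1, _⟩
        · exact ⟨b', h2⟩
        · exact ⟨a', h1⟩

lemma adj_image_left_mem_range {f : W → V} {F₁ : Set (Sym2 W)} {a b : V}
    (h : (fromEdgeSet (Sym2.map f '' F₁)).Adj a b) : a ∈ Set.range f := by
  rw [fromEdgeSet_adj] at h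
  obtain ⟨⟨e, _, he⟩, _⟩ := h
  induction e with
  | h a' b' =>
    rw [Sym2.map_mk, Sym2.eq_iff] at he
    rcases he with ⟨h1, _⟩ | ⟨_, h2⟩
    · exact ⟨a', h1⟩
    · exact ⟨b', h2⟩

lemma acyc_image_iff {f : W → V} (hf : Function.Injective f) (F₁ : Set (Sym2 W)) :
    Acyc (Sym2.map f '' F₁) ↔ Acyc F₁ := by
  constructor
  · intro h
    let g : fromEdgeSet F₁ →g fromEdgeSet (Sym2.map f '' F₁) :=
      ⟨f, fun {a b} hab => by
        rw [fromEdgeSet_adj] at hab ⊢
        exact ⟨⟨s(a, b), hab.1, rfl⟩, fun h => hab.2 (hf h)⟩⟩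
    exact IsAcyclic.comap g hf h
  · intro h v c hc
    have hv : v ∈ Set.range f := by
      cases c with
      | nil => exact absurd hc (by simp)
      | cons hadj p => exact adj_image_left_mem_range hadj
    have hsupp := support_subset_range_of_image c hv
    have hc' : (c.induce (Set.range f) hsupp).IsCycle := by
      apply Walk.IsCycle.of_map (f := (Embedding.induce (Set.range f)).toHom)
      rw [Walk.map_induce]
      exact hc
    let g : (fromEdgeSet (Sym2.map f '' F₁)).induce (Set.range f) →g fromEdgeSet F₁ :=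
      ⟨fun x => x.2.choose, fun {a b} hab => by
        have ha := a.2.choose_spec
        have hb := b.2.choose_spec
        rw [induce_adj, fromEdgeSet_adj] at hab
        obtain ⟨⟨e, heF, he⟩, hne⟩ := hab
        rw [fromEdgeSet_adj]
        constructor
        · have : e = s(a.2.choose, b.2.choose) := by
            apply Sym2.map.injective hf
            rw [he, Sym2.map_mk, ha, hb]
          exact this ▸ heF
        · intro heq
          apply hne
          rw [← ha, ← hb, heq]⟩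
    have hg : Function.Injective g := by
      intro a b hab
      have ha := a.2.choose_spec
      have hb := b.2.choose_spec
      apply Subtype.ext
      rw [← ha, ← hb]
      exact congrArg f hab
    exact (IsAcyclic.comap g hg h) _ hc'

lemma maxAcyc_image_iff {f : W → V} (hf : Function.Injective f) (E₁ : Set (Sym2 W))
    (F : Set (Sym2 V)) :
    MaxAcyc (Sym2.map f '' E₁) F ↔ ∃ F₁, MaxAcyc E₁ F₁ ∧ Sym2.map f '' F₁ = F := by
  have hφ := Sym2.map.injective hf
  constructor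
  · rintro ⟨⟨hsub, hac⟩, hmax⟩
    have himg : Sym2.map f '' (Sym2.map f ⁻¹' F) = F := by
      rw [Set.image_preimage_eq_iff]
      exact hsub.trans (Set.image_subset_range _ _)
    refine ⟨Sym2.map f ⁻¹' F, ⟨⟨?_, ?_⟩, ?_⟩, himg⟩
    · intro e he
      obtain ⟨e', he', heq⟩ := hsub he
      exact hφ heq ▸ he'
    · rw [← acyc_image_iff hf, himg]; exact hac
    · rintro F₁' ⟨hs', hac'⟩ hle e he
      have h1 : Sym2.map f '' F₁' ⊆ Sym2.map f '' E₁ := Set.image_mono hs'
      have h2 : F ⊆ Sym2.map f '' F₁' := by rw [← himg]; exact Set.image_mono hle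
      exact hmax ⟨h1, (acyc_image_iff hf _).mpr hac'⟩ h2 ⟨e, he, rfl⟩
  · rintro ⟨F₁, ⟨⟨hsub, hac⟩, hmax⟩, rfl⟩
    refine ⟨⟨Set.image_mono hsub, (acyc_image_iff hf _).mpr hac⟩, ?_⟩
    rintro F' ⟨hs', hac'⟩ hle
    have himg : Sym2.map f '' (Sym2.map f ⁻¹' F') = F' := by
      rw [Set.image_preimage_eq_iff]
      exact hs'.trans (Set.image_subset_range _ _)
    have h1 : Sym2.map f ⁻¹' F' ⊆ E₁ := by
      intro e he
      obtain ⟨e', he', heq⟩ := hs' he
      exact hφ heq ▸ he'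
    have h2 : Acyc (Sym2.map f ⁻¹' F') := by rw [← acyc_image_iff hf, himg]; exact hac'
    have h3 : F₁ ⊆ Sym2.map f ⁻¹' F' := fun e he => hle ⟨e, he, rfl⟩
    rw [← himg]
    exact Set.image_mono (hmax ⟨h1, h2⟩ h3)

lemma clsProb_image {f : W → V} (hf : Function.Injective f) (E₁ : Set (Sym2 W))
    (B A : Set (Sym2 V)) (hA : A ⊆ Set.range (Sym2.map f)) :
    clsProb (Sym2.map f '' E₁) {F | F ∩ B = A} =
      clsProb E₁ {F₁ | F₁ ∩ Sym2.map f ⁻¹' B = Sym2.map f ⁻¹' A} := by
  have hφ := Sym2.map.injective hf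
  have hinj : Function.Injective (fun F₁ : Set (Sym2 W) => Sym2.map f '' F₁) :=
    Set.image_injective.mpr hφ
  unfold clsProb
  have e1 : {F | MaxAcyc (Sym2.map f '' E₁) F} =
      (fun F₁ : Set (Sym2 W) => Sym2.map f '' F₁) '' {F₁ | MaxAcyc E₁ F₁} := by
    ext F
    rw [Set.mem_ofPred_eq, maxAcyc_image_iff hf]
    rfl
  have e2 : {F | MaxAcyc (Sym2.map f '' E₁) F ∧ F ∈ {F | F ∩ B = A}} =
      (fun F₁ : Set (Sym2 W) => Sym2.map f '' F₁) ''
        {F₁ | MaxAcyc E₁ F₁ ∧ F₁ ∈ {F₁ | F₁ ∩ Sym2.map f ⁻¹' B = Sym2.map f ⁻¹' A}} := by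
    ext F
    simp only [Set.mem_ofPred_eq, maxAcyc_image_iff hf, Set.mem_image]
    constructor
    · rintro ⟨⟨F₁, hF₁, rfl⟩, hB⟩
      refine ⟨F₁, ⟨hF₁, ?_⟩, rfl⟩
      rw [← hB, Set.preimage_inter, Set.preimage_image_eq _ hφ]
    · rintro ⟨F₁, ⟨hF₁, hB⟩, rfl⟩
      refine ⟨⟨F₁, hF₁, rfl⟩, ?_⟩
      rw [← Set.image_inter_preimage, hB, Set.image_preimage_eq_iff.mpr hA]
  rw [e1, e2, Set.ncard_image_of_injective _ hinj, Set.ncard_image_of_injective _ hinj]

lemma maxAcyc_of_acyc {E : Set (Sym2 V)} (hE : Acyc E) (F : Set (Sym2 V)) :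
    MaxAcyc E F ↔ F = E := by
  constructor
  · rintro ⟨⟨hsub, _⟩, hmax⟩
    exact Set.Subset.antisymm hsub (hmax ⟨subset_rfl, hE⟩ hsub)
  · rintro rfl
    exact ⟨⟨subset_rfl, hE⟩, fun F' hF' _ => hF'.1⟩

open Classical in
lemma clsProb_of_acyc {E : Set (Sym2 V)} (hE : Acyc E) (𝒜 : Set (Set (Sym2 V))) :
    clsProb E 𝒜 = if E ∈ 𝒜 then 1 else 0 := by
  unfold clsProb
  simp only [maxAcyc_of_acyc hE]
  split_ifs with h
  · have : {F | F = E ∧ F ∈ 𝒜} = {E} := by
      ext F; simp only [Set.mem_ofPred_eq, Set.mem_singleton_iff]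
      constructor
      · exact fun h => h.1
      · rintro rfl; exact ⟨rfl, h⟩
    rw [this]; simp
  · have : {F | F = E ∧ F ∈ 𝒜} = ∅ := by
      ext F; simp only [Set.mem_ofPred_eq, Set.mem_empty_iff_false, iff_false]
      rintro ⟨rfl, h'⟩; exact h h'
    rw [this]; simp

end Vale.Agent.P143
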