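import Vale.Agent.P143.Defs

open SimpleGraph

namespace Vale.Agent.P143

variable {V : Type*}

/-- the graph with edge set `F` has no cycle -/
def Acyc (F : Set (Sym2 V)) : Prop := (fromEdgeSet F).IsAcyclic

/-- `F` is a maximal acyclic subset of `E` -/
def MaxAcyc (E F : Set (Sym2 V)) : Prop := Maximal (fun F' => F' ⊆ E ∧ Acyc F') F

lemma Acyc.mono {F F' : Set (Sym2 V)} (h : F ⊆ F') (hF' : Acyc F') : Acyc F :=
  IsAcyclic.anti (fromEdgeSet_mono h) hF'

lemma reachable_spanningCoe {G : SimpleGraph V} {H : G.Subgraph} (hH : H.Connected)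
    {u v : V} (hu : u ∈ H.verts) (hv : v ∈ H.verts) : H.spanningCoe.Reachable u v := by
  have h := hH.coe.preconnected ⟨u, hu⟩ ⟨v, hv⟩
  let f : H.coe →g H.spanningCoe := ⟨Subtype.val, fun {a b} hab => hab⟩
  exact h.map f

lemma isSpanningTree_iff_maxAcyc {G : SimpleGraph V} (H : G.Subgraph) (hH : H.Connected)
    (F : Set (Sym2 V)) : IsSpanningTree H F ↔ MaxAcyc H.edgeSet F := by
  constructor
  · rintro ⟨hsub, hac, hreach⟩
    refine ⟨⟨hsub, hac⟩, ?_⟩
    rintro F' ⟨hF'sub, hF'ac⟩ hle e he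
    by_contra heF
    induction e with
    | h x y =>
      have hxy : H.Adj x y := hF'sub he
      have hr := hreach x (H.edge_vert hxy) y (H.edge_vert hxy.symm)
      have hle' : fromEdgeSet F ⊔ edge x y ≤ fromEdgeSet F' := by
        refine sup_le (fromEdgeSet_mono hle) ?_
        rw [edge]
        exact fromEdgeSet_mono (by simpa using he)
      have hac' := (isAcyclic_sup_fromEdgeSet_iff.mp (IsAcyclic.anti hle' hF'ac)).2 hr
      rcases hac' with h | h
      · exact (H.adj_sub hxy).ne h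
      · exact heF (by simpa using h.1)
  · rintro ⟨⟨hsub, hac⟩, hmax⟩
    refine ⟨hsub, hac, fun u hu v hv => ?_⟩
    have hle : fromEdgeSet F ≤ H.spanningCoe := by
      rw [← H.edgeSet_spanningCoe] at hsub
      calc fromEdgeSet F ≤ fromEdgeSet H.spanningCoe.edgeSet := fromEdgeSet_mono hsub
        _ = H.spanningCoe := fromEdgeSet_edgeSet _
    have hM : Maximal (fun T => T ≤ H.spanningCoe ∧ T.IsAcyclic) (fromEdgeSet F) := by
      refine ⟨⟨hle, hac⟩, ?_⟩
      rintro T ⟨hT, hTac⟩ hFT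
      have h1 : T.edgeSet ⊆ H.edgeSet := by
        rw [← H.edgeSet_spanningCoe]; exact edgeSet_mono hT
      have h2 : Acyc T.edgeSet := by unfold Acyc; rwa [fromEdgeSet_edgeSet]
      have h3 : F ⊆ T.edgeSet := by
        intro e he
        have : e ∈ (fromEdgeSet F).edgeSet := by
          rw [edgeSet_fromEdgeSet]
          exact ⟨he, fun hd => G.not_isDiag_of_mem_edgeSet (H.edgeSet_subset (hsub he)) hd⟩
        exact edgeSet_mono hFT this
      have h4 := hmax ⟨h1, h2⟩ h3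
      calc T = fromEdgeSet T.edgeSet := (fromEdgeSet_edgeSet _).symm
        _ ≤ fromEdgeSet F := fromEdgeSet_mono h4
    rw [reachable_eq_of_maximal_isAcyclic _ hM]
    exact reachable_spanningCoe hH hu hv

/-- every cycle with edges in `E` lies inside `P` or avoids `P` -/
def Sep (E P : Set (Sym2 V)) : Prop :=
  ∀ (v : V) (c : (fromEdgeSet E).Walk v v), c.IsCycle →
    (∀ e ∈ c.edges, e ∈ P) ∨ (∀ e ∈ c.edges, e ∉ P)

lemma Sep.mono {E E' P : Set (Sym2 V)} (h : Sep E P) (hE : E' ⊆ E) : Sep E' P := by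
  intro v c hc
  have := h v (c.mapLe (fromEdgeSet_mono hE)) (hc.mapLe _)
  simpa using this

lemma acyc_iff_of_sep {E P F : Set (Sym2 V)} (h : Sep E P) (hF : F ⊆ E) :
    Acyc F ↔ Acyc (F ∩ P) ∧ Acyc (F \ P) := by
  constructor
  · intro hac
    exact ⟨hac.mono Set.inter_subset_left, hac.mono Set.sdiff_subset⟩
  · rintro ⟨h1, h2⟩ v c hc
    have hmem : ∀ e ∈ c.edges, e ∈ F ∧ ¬ e.IsDiag := by
      intro e he
      have := c.edges_subset_edgeSet he
      rw [edgeSet_fromEdgeSet] at this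
      exact ⟨this.1, this.2⟩
    rcases (h.mono hF) v c hc with hP | hP
    · refine h1 (c.transfer (fromEdgeSet (F ∩ P)) ?_) (hc.transfer _)
      intro e he
      rw [edgeSet_fromEdgeSet]
      exact ⟨⟨(hmem e he).1, hP e he⟩, (hmem e he).2⟩
    · refine h2 (c.transfer (fromEdgeSet (F \ P)) ?_) (hc.transfer _)
      intro e he
      rw [edgeSet_fromEdgeSet]
      exact ⟨⟨(hmem e he).1, hP e he⟩, (hmem e he).2⟩

lemma maxAcyc_iff_of_sep {E P F : Set (Sym2 V)} (h : Sep E P) :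
    MaxAcyc E F ↔ MaxAcyc (E ∩ P) (F ∩ P) ∧ MaxAcyc (E \ P) (F \ P) := by
  constructor
  · rintro ⟨⟨hsub, hac⟩, hmax⟩
    have hac' := (acyc_iff_of_sep h hsub).mp hac
    refine ⟨⟨⟨Set.inter_subset_inter_left _ hsub, hac'.1⟩, ?_⟩,
      ⟨⟨Set.sdiff_subset_sdiff_left hsub, hac'.2⟩, ?_⟩⟩
    · rintro F1 ⟨hF1, hF1ac⟩ hle
      have hsub' : F1 ∪ (F \ P) ⊆ E :=
        Set.union_subset (hF1.trans Set.inter_subset_left) (Set.sdiff_subset.trans hsub)
      have e1 : (F1 ∪ (F \ P)) ∩ P = F1 := by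
        ext e; constructor
        · rintro ⟨h1 | h1, h2⟩
          · exact h1
          · exact absurd h2 h1.2
        · intro h1; exact ⟨Or.inl h1, (hF1 h1).2⟩
      have e2 : (F1 ∪ (F \ P)) \ P = F \ P := by
        ext e; constructor
        · rintro ⟨h1 | h1, h2⟩
          · exact absurd (hF1 h1).2 h2
          · exact h1
        · intro h1; exact ⟨Or.inr h1, h1.2⟩
      have hacU : Acyc (F1 ∪ (F \ P)) := by
        rw [acyc_iff_of_sep h hsub', e1, e2]; exact ⟨hF1ac, hac'.2⟩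
      have hFle : F ⊆ F1 ∪ (F \ P) := by
        intro e he
        by_cases heP : e ∈ P
        · exact Or.inl (hle ⟨he, heP⟩)
        · exact Or.inr ⟨he, heP⟩
      have := hmax ⟨hsub', hacU⟩ hFle
      intro e he
      exact ⟨this (Or.inl he), (hF1 he).2⟩
    · rintro F2 ⟨hF2, hF2ac⟩ hle
      have hsub' : (F ∩ P) ∪ F2 ⊆ E :=
        Set.union_subset (Set.inter_subset_left.trans hsub) (hF2.trans Set.sdiff_subset)
      have e1 : ((F ∩ P) ∪ F2) ∩ P = F ∩ P := by
        ext e; constructor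
        · rintro ⟨h1 | h1, h2⟩
          · exact h1
          · exact absurd h2 (hF2 h1).2
        · intro h1; exact ⟨Or.inl h1, h1.2⟩
      have e2 : ((F ∩ P) ∪ F2) \ P = F2 := by
        ext e; constructor
        · rintro ⟨h1 | h1, h2⟩
          · exact absurd h1.2 h2
          · exact h1
        · intro h1; exact ⟨Or.inr h1, (hF2 h1).2⟩
      have hacU : Acyc ((F ∩ P) ∪ F2) := by
        rw [acyc_iff_of_sep h hsub', e1, e2]; exact ⟨hac'.1, hF2ac⟩
      have hFle : F ⊆ (F ∩ P) ∪ F2 := by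
        intro e he
        by_cases heP : e ∈ P
        · exact Or.inl ⟨he, heP⟩
        · exact Or.inr (hle ⟨he, heP⟩)
      have := hmax ⟨hsub', hacU⟩ hFle
      intro e he
      exact ⟨this (Or.inr he), (hF2 he).2⟩
  · rintro ⟨⟨⟨hs1, hac1⟩, hmax1⟩, ⟨⟨hs2, hac2⟩, hmax2⟩⟩
    have hsub : F ⊆ E := by
      intro e he
      by_cases heP : e ∈ P
      · exact (hs1 ⟨he, heP⟩).1
      · exact (hs2 ⟨he, heP⟩).1
    refine ⟨⟨hsub, (acyc_iff_of_sep h hsub).mpr ⟨hac1, hac2⟩⟩, ?_⟩
    rintro F' ⟨hF', hF'ac⟩ hle e he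
    have hac' := (acyc_iff_of_sep h hF').mp hF'ac
    by_cases heP : e ∈ P
    · exact (hmax1 ⟨Set.inter_subset_inter_left _ hF', hac'.1⟩
        (Set.inter_subset_inter_left _ hle) ⟨he, heP⟩).1
    · exact (hmax2 ⟨Set.sdiff_subset_sdiff_left hF', hac'.2⟩
        (Set.sdiff_subset_sdiff_left hle) ⟨he, heP⟩).1

end Vale.Agent.P143
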